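import Vale.Agent.P254.Bdl.B19
import Vale.Agent.P254.Defs

/-!
P254: near-sharp slicing from `NiceDDL δ` in all dimensions.
-/

open MeasureTheory Set Matrix

namespace Vale.Agent.P254.S937

/-- near-sharp slicing from `NiceDDL δ` -/
theorem near_sharp_of {δ : ℝ} (hN : ∀ n : ℕ, X.Loss.NiceDDL δ n) {n : ℕ} (hn : 1 ≤ n)
    {K S : Set (Fin n → ℝ)} (hK : IsConvexBody K) (hS : IsSimplex S) :
    isoConst K ≤ Real.exp (δ * (((n : ℝ) + 1) / n)) * isoConst S ∧
      isoConst K ≤ Real.exp (δ - 1) := by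
  refine ⟨?_, X.Top.isoConst_le_abs_of hn (hN n) hK⟩
  have h1 := X.Loss.isoConst_le_of_niceDDL hn (hN (n + 1)) hK hS
  rwa [mul_div_assoc] at h1

end Vale.Agent.P254.S937
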