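import Vale.Agent.P254.H4.Slice

/-!
P254: hyperplane sections of convex bodies (the slicing problem) from any bound `L_K ≤ L`.
-/

open MeasureTheory Set Matrix

namespace Vale.Agent.P254.S937

open H4

/-- The main step: if `P` is a matrix with `|det P| = 1` and the first coordinate has variance `lam`
on `P K`, `lam^(m+1) ≤ det Σ_K`, then some slice of `P K` is large. -/
theorem core {c L₀ : ℝ} (hc0 : 0 < c) (hcL : 12 * c ^ 2 * L₀ ^ 2 < 1) {m : ℕ} {K : Set (Fin (m + 1) → ℝ)} (hK : IsConvexBody K)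
    (hiso : isoConst K ≤ L₀)
    {P : Matrix (Fin (m + 1)) (Fin (m + 1)) ℝ} (hdet : |P.det| = 1)
    (hl : (P * covMatrix K * Pᵀ) 0 0 ^ (m + 1) ≤ (covMatrix K).det) :
    ∃ t : ℝ, c * (volume K).toReal ^ ((m : ℝ) / (m + 1)) ≤
      (volume (sl (aff P 0 '' K) t)).toReal := by
  by_contra hc
  push Not at hc
  have hdet0 : P.det ≠ 0 := by
    intro h
    rw [h] at hdet
    simp at hdet
  have hKc := hK.2.1
  have hV : 0 < (volume K).toReal :=
    ENNReal.toReal_pos ((isOpen_interior.measure_pos volume hK.2.2).trans_le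
      (measure_mono interior_subset)).ne' hKc.measure_lt_top.ne
  set V := (volume K).toReal with hVdef
  set L := aff P 0 '' K with hL
  have hLc : IsCompact L := isCompact_aff_image _ _ hKc
  have hLV : (volume L).toReal = V := by
    rw [hL, volume_aff_image hdet0 _ hKc.measurableSet, hdet, one_mul]
  have hcov : covMatrix L = P * covMatrix K * Pᵀ := by
    rw [hL, cov_aff_image hdet0 _ hKc hV.ne']
  set lam := (P * covMatrix K * Pᵀ) 0 0 with hlam
  set B := c * V ^ ((m : ℝ) / (m + 1)) with hB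
  have hB0 : 0 < B := by positivity
  have h1 := mom_lower hLc (μ := centroid L 0) hB0 (fun t => (hc t).le)
  have h2 : ∫ z in L, (z 0 - centroid L 0) ^ 2 = V * lam := by
    rw [hlam, ← hcov, covMatrix, hLV]
    field_simp
  rw [h2, hLV] at h1
  have h3 : V ^ 2 ≤ 12 * B ^ 2 * lam := by
    have : V * V ^ 2 ≤ V * (12 * B ^ 2 * lam) := by nlinarith
    exact le_of_mul_le_mul_left this hV
  -- pass to `x = V^(1/(m+1))`
  set x := V ^ (1 / ((m : ℝ) + 1)) with hx
  have hx0 : 0 < x := by positivity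
  have hm1 : ((m : ℝ) + 1) ≠ 0 := by positivity
  have hxV : x ^ (m + 1) = V := by
    rw [hx, ← Real.rpow_natCast, ← Real.rpow_mul hV.le]
    push_cast
    rw [one_div_mul_cancel hm1, Real.rpow_one]
  have hxm : x ^ m = V ^ ((m : ℝ) / (m + 1)) := by
    rw [hx, ← Real.rpow_natCast, ← Real.rpow_mul hV.le]
    congr 1
    ring
  have h4 : x ^ 2 ≤ 12 * (c) ^ 2 * lam := by
    rw [hB, ← hxm, ← hxV] at h3
    have hxm0 : 0 < x ^ m := by positivity
    have : (x ^ m) ^ 2 * x ^ 2 ≤ (x ^ m) ^ 2 * (12 * (c) ^ 2 * lam) := by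
      calc (x ^ m) ^ 2 * x ^ 2 = (x ^ (m + 1)) ^ 2 := by ring
        _ ≤ _ := h3
        _ = _ := by ring
    exact le_of_mul_le_mul_left this (by positivity)
  have h5 : (x ^ 2) ^ (m + 1) ≤ (12 * c ^ 2) ^ (m + 1) * (covMatrix K).det := by
    refine (pow_le_pow_left₀ (by positivity) h4 (m + 1)).trans ?_
    rw [mul_pow]
    exact mul_le_mul_of_nonneg_left hl (by positivity)
  have h6 : (covMatrix K).det = isoConst K ^ (2 * (m + 1)) * V ^ 2 := by
    rw [FV.isoConst_pow (by omega) (by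
      have := (covMatrix_posDef hK).det_pos
      positivity) rfl, ← hVdef]
    field_simp
  have h7 : isoConst K ≤ L₀ := hiso
  have h8 : 0 ≤ isoConst K := by
    rw [isoConst]
    have := (covMatrix_posDef hK).det_pos
    positivity
  have h9 : (x ^ 2) ^ (m + 1) = V ^ 2 := by rw [← hxV]; ring
  rw [h9, h6] at h5
  have h10 : 1 ≤ (12 * c ^ 2 * isoConst K ^ 2) ^ (m + 1) := by
    have : V ^ 2 * 1 ≤ V ^ 2 * (12 * c ^ 2 * isoConst K ^ 2) ^ (m + 1) := by
      refine le_trans (by simpa using h5) (le_of_eq ?_)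
      ring
    exact le_of_mul_le_mul_left this (by positivity)
  have h11 : 12 * c ^ 2 * isoConst K ^ 2 < 1 := by
    refine lt_of_le_of_lt ?_ hcL
    exact mul_le_mul_of_nonneg_left (pow_le_pow_left₀ h8 h7 2) (by positivity)
  exact absurd h10 (not_le.mpr (pow_lt_one₀ (by positivity) h11 (by omega)))

/-- Every convex body in `ℝ^(m + 1)` has a hyperplane section of volume at least
`c |K|^(m / (m + 1))`. -/
theorem slicing_of {c L₀ : ℝ} (hc0 : 0 < c) (hcL : 12 * c ^ 2 * L₀ ^ 2 < 1) {m : ℕ}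
    {K : Set (Fin (m + 1) → ℝ)} (hK : IsConvexBody K) (hiso : isoConst K ≤ L₀) :
    ∃ O : Matrix (Fin (m + 1)) (Fin (m + 1)) ℝ, Oᵀ * O = 1 ∧ ∃ t : ℝ,
      c * (volume K).toReal ^ ((m : ℝ) / (m + 1)) ≤
        (volume {y : Fin m → ℝ | O *ᵥ (Fin.cons t y : Fin (m + 1) → ℝ) ∈ K}).toReal := by
  obtain ⟨O, hO, -, hl⟩ := exists_orth (covMatrix_posDef hK)
  obtain ⟨t, ht⟩ := core hc0 hcL hK hiso (P := Oᵀ) (absdet_of_orth hO) (by rwa [transpose_transpose])
  refine ⟨O, hO, t, ?_⟩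
  rw [sl_eq (Q := 1) hO (by rw [Matrix.mul_one])] at ht
  simpa using ht

/-- Every convex body in `ℝ^(m + 1)` has a volume preserving linear image which has, in every
direction, a hyperplane section of volume at least `c |K|^(m / (m + 1))`. -/
theorem slicing_all_of {c L₀ : ℝ} (hc0 : 0 < c) (hcL : 12 * c ^ 2 * L₀ ^ 2 < 1) {m : ℕ}
    {K : Set (Fin (m + 1) → ℝ)} (hK : IsConvexBody K) (hiso : isoConst K ≤ L₀) :
    ∃ A : Matrix (Fin (m + 1)) (Fin (m + 1)) ℝ, |A.det| = 1 ∧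
      ∀ O : Matrix (Fin (m + 1)) (Fin (m + 1)) ℝ, Oᵀ * O = 1 → ∃ t : ℝ,
        c * (volume K).toReal ^ ((m : ℝ) / (m + 1)) ≤
          (volume {y : Fin m → ℝ |
            O *ᵥ (Fin.cons t y : Fin (m + 1) → ℝ) ∈ (fun x => A *ᵥ x) '' K}).toReal := by
  obtain ⟨A, hA, s, -, hs, hsn⟩ := exists_iso (covMatrix_posDef hK)
  refine ⟨A, hA, fun O hO => ?_⟩
  have hd : |(Oᵀ * A).det| = 1 := by rw [det_mul, abs_mul, absdet_of_orth hO, hA, one_mul]
  have hc : (Oᵀ * A) * covMatrix K * (Oᵀ * A)ᵀ = s • (1 : Matrix _ _ ℝ) := by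
    have : (Oᵀ * A) * covMatrix K * (Oᵀ * A)ᵀ = Oᵀ * (A * covMatrix K * Aᵀ) * O := by
      rw [transpose_mul, transpose_transpose]
      simp only [Matrix.mul_assoc]
    rw [this, hs, Matrix.mul_smul, Matrix.mul_one, Matrix.smul_mul, hO]
  obtain ⟨t, ht⟩ := core hc0 hcL hK hiso hd (by rw [hc]; simpa using hsn.le)
  refine ⟨t, ?_⟩
  rw [sl_eq hO rfl] at ht
  exact ht

end Vale.Agent.P254.S937
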