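import Vale.Agent.P254.S.H151.Top
import Vale.Agent.P254.S.H929.Cert
import Vale.Agent.P254.S.H937.Near
import Vale.Agent.P254.S.H937.Slice

/-!
P254: near-sharp slicing with the loss `δ = 1/25` and its consequence for hyperplane sections.
-/

open MeasureTheory Set Matrix

namespace Vale.Agent.P254.S937

/-- the near-sharp inequality, `δ = 1/25` (certificate of `S/H929/Cert.lean`) -/
theorem nice25 (n : ℕ) : X.Loss.NiceDDL (1 / 25) n :=
  S151.niceDDL_of_cert S929.cert (by norm_num) n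

/-- near-sharp slicing, `δ = 1/25` -/
theorem near25 {n : ℕ} (hn : 1 ≤ n) {K S : Set (Fin n → ℝ)} (hK : IsConvexBody K)
    (hS : IsSimplex S) :
    isoConst K ≤ Real.exp (1 / 25 * (((n : ℝ) + 1) / n)) * isoConst S ∧
      isoConst K ≤ Real.exp (-(24 / 25)) := by
  obtain ⟨h1, h2⟩ := near_sharp_of nice25 hn hK hS
  refine ⟨h1, ?_⟩
  have e : (1 / 25 - 1 : ℝ) = -(24 / 25) := by norm_num
  rwa [e] at h2

lemma num25 : 12 * (753 / 1000 : ℝ) ^ 2 * Real.exp (-(24 / 25)) ^ 2 < 1 := by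
  have h1 : (6.8209 : ℝ) < Real.exp (48 / 25) := by
    refine lt_of_lt_of_le ?_ (Real.sum_le_exp_of_nonneg (by norm_num : (0 : ℝ) ≤ 48 / 25) 14)
    norm_num [Finset.sum_range_succ, Nat.factorial]
  have h2 : Real.exp (-(24 / 25)) ^ 2 * Real.exp (48 / 25) = 1 := by
    rw [← Real.exp_nat_mul, ← Real.exp_add]
    norm_num
  have h3 : 0 < Real.exp (-(24 / 25)) ^ 2 := by positivity
  nlinarith

theorem slicing25 {m : ℕ} {K : Set (Fin (m + 1) → ℝ)} (hK : IsConvexBody K) :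
    ∃ O : Matrix (Fin (m + 1)) (Fin (m + 1)) ℝ, Oᵀ * O = 1 ∧ ∃ t : ℝ,
      753 / 1000 * (volume K).toReal ^ ((m : ℝ) / (m + 1)) ≤
        (volume {y : Fin m → ℝ | O *ᵥ (Fin.cons t y : Fin (m + 1) → ℝ) ∈ K}).toReal :=
  slicing_of (by norm_num) num25 hK (near25 (by omega) hK FV.isSimplex_stdS).2

theorem slicing25_all {m : ℕ} {K : Set (Fin (m + 1) → ℝ)} (hK : IsConvexBody K) :
    ∃ A : Matrix (Fin (m + 1)) (Fin (m + 1)) ℝ, |A.det| = 1 ∧
      ∀ O : Matrix (Fin (m + 1)) (Fin (m + 1)) ℝ, Oᵀ * O = 1 → ∃ t : ℝ,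
        753 / 1000 * (volume K).toReal ^ ((m : ℝ) / (m + 1)) ≤
          (volume {y : Fin m → ℝ |
            O *ᵥ (Fin.cons t y : Fin (m + 1) → ℝ) ∈ (fun x => A *ᵥ x) '' K}).toReal :=
  slicing_all_of (by norm_num) num25 hK (near25 (by omega) hK FV.isSimplex_stdS).2

end Vale.Agent.P254.S937
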